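import Vale.Agent.P084.L1d

/-! `ℓ₁`-sum `E ⊕₁ F` of a strictly convex space `E` and an arbitrary space `F`: basic facts.
Everything here is the analogue of `Vale/Agent/P084/L1b.lean` (where `E = ℝ`, `e = 1`);
the apex is now `mk2 e 0` for an arbitrary unit vector `e` of `E`. -/

namespace Vale.Agent.P084

open Metric Set

set_option linter.unusedSectionVars false

universe u v w

variable {E : Type u} {F : Type v} {W : Type w}
  [NormedAddCommGroup E] [NormedSpace ℝ E] [NormedAddCommGroup F] [NormedSpace ℝ F]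
  [NormedAddCommGroup W] [NormedSpace ℝ W]

/-- the point with coordinates `x`, `u` of the `ℓ₁`-sum of `E` and `F` -/
def mk2 (x : E) (u : F) : WithLp 1 (E × F) := WithLp.toLp 1 (x, u)

lemma nrm2 (x : E) (u : F) : ‖mk2 x u‖ = ‖x‖ + ‖u‖ := by
  rw [WithLp.prod_norm_eq_of_L1]; rfl

lemma mk2_sub (x x' : E) (u u' : F) : mk2 x u - mk2 x' u' = mk2 (x - x') (u - u') := rfl

lemma mk2_eta (z : WithLp 1 (E × F)) : z = mk2 z.fst z.snd := rfl

lemma mk2_smul (c : ℝ) (x : E) (u : F) : c • mk2 x u = mk2 (c • x) (c • u) := rfl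

lemma mk2_neg (x : E) (u : F) : - mk2 x u = mk2 (-x) (-u) := rfl

lemma n_apex2 {e : E} (he : ‖e‖ = 1) : ‖mk2 e (0 : F)‖ = 1 := by rw [nrm2, he]; simp

lemma n_up2 {e : E} (he : ‖e‖ = 1) {v : F} (hv : ‖v‖ ≤ 1) : ‖mk2 ((1 - ‖v‖) • e) v‖ = 1 := by
  rw [nrm2, norm_smul, he, Real.norm_of_nonneg (by linarith)]; ring

/-- the hemisphere around the apex `mk2 e 0` parametrised by the unit ball of `F` -/
def gq (f : WithLp 1 (E × F) → W) (e : E) (v : F) : W := f (mk2 ((1 - ‖v‖) • e) v)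

lemma gq_zero (f : WithLp 1 (E × F) → W) (e : E) : gq f e 0 = f (mk2 e 0) := by
  simp [gq]

/-- for unit vectors `e`, `e''` and nonnegative `t`, `α` -/
lemma ray_dist {e e'' : E} (he : ‖e‖ = 1) (he'' : ‖e''‖ = 1) {t α : ℝ} (ht : 0 ≤ t) (hα : 0 ≤ α) :
    t * ‖e - e''‖ ≤ 2 * ‖t • e - α • e''‖ := by
  have h1 : t * ‖e - e''‖ = ‖t • e - t • e''‖ := by
    rw [← smul_sub, norm_smul, Real.norm_of_nonneg ht]
  have h2 : t • e - t • e'' = (t • e - α • e'') + (α - t) • e'' := by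
    rw [sub_smul]; abel
  have h3 : ‖(α - t) • e''‖ = |α - t| := by
    rw [norm_smul, he'', mul_one, Real.norm_eq_abs]
  have h4 : |α - t| ≤ ‖t • e - α • e''‖ := by
    have h5 := abs_norm_sub_norm_le (t • e) (α • e'')
    rw [norm_smul, norm_smul, he, he'', mul_one, mul_one, Real.norm_of_nonneg ht,
      Real.norm_of_nonneg hα, abs_sub_comm] at h5
    exact h5
  rw [h1, h2]
  have h6 := norm_add_le (t • e - α • e'') ((α - t) • e'')
  rw [h3] at h6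
  linarith

section sc

variable [StrictConvexSpace ℝ E]

/-- TASK A1. strict convexity: if `‖x - t • e‖ = ‖x‖ + t` with `t > 0`, `‖e‖ = 1`, then `x` is a
nonpositive multiple of `e`.  (`sameRay_iff_norm_add` for `x` and `-(t • e)`,
`SameRay.norm_smul_eq`; compare `ant` in `Sc2.lean`.) -/
lemma sc_neg_ray {x e : E} (he : ‖e‖ = 1) {t : ℝ} (ht : 0 < t) (h : ‖x - t • e‖ = ‖x‖ + t) :
    x = (-‖x‖) • e := by
  have hn : ‖-(t • e)‖ = t := by
    rw [norm_neg, norm_smul, he, mul_one, Real.norm_of_nonneg ht.le]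
  have h1 : SameRay ℝ x (-(t • e)) := by
    rw [sameRay_iff_norm_add, hn, ← sub_eq_add_neg]; exact h
  have h2 := h1.norm_smul_eq
  rw [hn, smul_neg, smul_smul] at h2
  have h3 : t⁻¹ • (t • x) = x := by rw [smul_smul, inv_mul_cancel₀ ht.ne', one_smul]
  have h4 : t⁻¹ • (-((‖x‖ * t) • e)) = (-‖x‖) • e := by
    rw [smul_neg, smul_smul, neg_smul]
    congr 2
    field_simp
  rw [← h4, h2, h3]

/-- the same with a plus sign -/
lemma sc_pos_ray {x e : E} (he : ‖e‖ = 1) {t : ℝ} (ht : 0 < t) (h : ‖x + t • e‖ = ‖x‖ + t) :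
    x = ‖x‖ • e := by
  have h1 : x = (-‖x‖) • (-e) := by
    apply sc_neg_ray (by rw [norm_neg, he]) ht
    rw [smul_neg, sub_neg_eq_add]; exact h
  rw [neg_smul, smul_neg, neg_neg] at h1
  exact h1

variable {f : WithLp 1 (E × F) → W} (hf : SphIso f)
include hf

lemma n_gq {e : E} (he : ‖e‖ = 1) {v : F} (hv : ‖v‖ ≤ 1) : ‖gq f e v‖ = 1 :=
  hf.norm _ (n_up2 he hv)

/-- TASK A2 (copy of `dist_up`). -/
lemma dist_up2 {e : E} (he : ‖e‖ = 1) {v w : F} (hv : ‖v‖ ≤ 1) (hw : ‖w‖ ≤ 1) :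
    ‖gq f e v - gq f e w‖ = |‖v‖ - ‖w‖| + ‖v - w‖ := by
  rw [gq, gq, hf.iso _ _ (n_up2 he hv) (n_up2 he hw), mk2_sub, nrm2, ← sub_smul, norm_smul, he,
    mul_one, Real.norm_eq_abs]
  congr 1
  rw [abs_sub_comm]
  congr 1
  ring

lemma dist_apex2 {e : E} (he : ‖e‖ = 1) {v : F} (hv : ‖v‖ ≤ 1) :
    ‖gq f e v - f (mk2 e 0)‖ = 2 * ‖v‖ := by
  rw [← gq_zero f, dist_up2 hf he hv (by simp), norm_zero, sub_zero, sub_zero,
    abs_of_nonneg (norm_nonneg _)]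
  ring

/-- TASK A3 (copy of `up_flat_open`): let `z` be the preimage of `- f (mk2 (t • e) u)`; it is at
distance `2` from `mk2 (t • e) u`, hence (triangle inequalities are equalities)
`‖z.fst - t • e‖ = ‖z.fst‖ + t`, so `z.fst = (-‖z.fst‖) • e` by `sc_neg_ray`, and then
`‖mk2 e 0 - z‖ = 1 + ‖z.fst‖ + ‖z.snd‖ = 2`. -/
lemma up_flat_open2 {e : E} (he : ‖e‖ = 1) {t : ℝ} {u : F} (ht : 0 < t) (h1 : t + ‖u‖ = 1) :
    ‖f (mk2 (t • e) u) + f (mk2 e 0)‖ = 2 := by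
  have hte : ‖t • e‖ = t := by rw [norm_smul, he, mul_one, Real.norm_of_nonneg ht.le]
  have nx : ‖mk2 (t • e) u‖ = 1 := by rw [nrm2, hte]; exact h1
  obtain ⟨z, hz, hfz⟩ := hf.surj (- f (mk2 (t • e) u)) (by rw [norm_neg]; exact hf.norm _ nx)
  have h2 := hf.anti_two nx hz hfz
  obtain ⟨xz, uz, rfl⟩ : ∃ xz uz, z = mk2 xz uz := ⟨z.fst, z.snd, rfl⟩
  have hz' := hz
  rw [mk2_sub, nrm2] at h2
  rw [nrm2] at hz
  have h3 : ‖uz - u‖ ≤ ‖uz‖ + ‖u‖ := norm_sub_le _ _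
  have h3' : ‖xz - t • e‖ ≤ ‖xz‖ + t := by
    have := norm_sub_le xz (t • e)
    rwa [hte] at this
  have h4 : xz = (-‖xz‖) • e := sc_neg_ray he ht (by linarith)
  have e1 : f (mk2 (t • e) u) + f (mk2 e 0) = f (mk2 e 0) - f (mk2 xz uz) := by rw [hfz]; abel
  have e2 : e - xz = (1 + ‖xz‖) • e := by
    conv_lhs => rw [h4]
    rw [neg_smul, sub_neg_eq_add, add_smul, one_smul]
  rw [e1, hf.iso _ _ (n_apex2 he) hz', mk2_sub, nrm2, zero_sub, norm_neg, e2, norm_smul, he,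
    mul_one, Real.norm_of_nonneg (by positivity)]
  linarith

/-- TASK A4 (copy of `up_flat`; the case `‖v‖ = 1` by approximation). -/
lemma up_flat2 {e : E} (he : ‖e‖ = 1) {v : F} (hv : ‖v‖ ≤ 1) :
    ‖gq f e v + f (mk2 e 0)‖ = 2 := by
  rcases lt_or_eq_of_le hv with h | h
  · exact up_flat_open2 hf he (by linarith) (by ring)
  · apply le_antisymm
    · have := norm_add_le (gq f e v) (f (mk2 e 0))
      rw [n_gq hf he hv, hf.norm _ (n_apex2 he)] at this; linarith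
    · apply le_of_forall_pos_le_add
      intro ε hε
      set μ : ℝ := min (ε / 2) (1 / 2) with hμ
      have hμ0 : 0 < μ := lt_min (by positivity) (by norm_num)
      have hμ1 : μ ≤ 1 / 2 := min_le_right _ _
      have hμ2 : μ ≤ ε / 2 := min_le_left _ _
      have hwn : ‖(1 - μ) • v‖ = 1 - μ := by
        rw [norm_smul, h, mul_one, Real.norm_of_nonneg (by linarith)]
      have h1 : ‖gq f e ((1 - μ) • v) + f (mk2 e 0)‖ = 2 :=
        up_flat_open2 hf he (by rw [hwn]; linarith) (by ring)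
      have h2 := dist_up2 hf he hv (by rw [hwn]; linarith : ‖(1 - μ) • v‖ ≤ 1)
      have e1 : v - (1 - μ) • v = μ • v := by module
      rw [hwn, h, e1, norm_smul, h, mul_one, Real.norm_of_nonneg hμ0.le,
        abs_of_nonneg (by linarith)] at h2
      have e2 : gq f e ((1 - μ) • v) + f (mk2 e 0)
          = (gq f e v + f (mk2 e 0)) - (gq f e v - gq f e ((1 - μ) • v)) := by abel
      have h3 := norm_sub_le (gq f e v + f (mk2 e 0)) (gq f e v - gq f e ((1 - μ) • v))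
      rw [← e2, h1, h2] at h3
      linarith

/-- TASK A5 (copy of `neg_apex`): the preimage `b` of `- f (mk2 e 0)` is at distance `2` from the
apex, so `b = mk2 ((-α) • e) ub` with `α + ‖ub‖ = 1` (`sc_neg_ray` with `t = 1`); if `ub ≠ 0` test
with the point `mk2 ((1/2) • e) x`, `x = (1 / 2 / ‖ub‖) • ub`, as in `neg_apex`. -/
lemma neg_apex2 {e : E} (he : ‖e‖ = 1) : f (mk2 (-e) 0) = - f (mk2 e 0) := by
  obtain ⟨b, hb, hfb⟩ := hf.surj (- f (mk2 e 0)) (by rw [norm_neg]; exact hf.norm _ (n_apex2 he))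
  obtain ⟨xb, ub, rfl⟩ : ∃ xb ub, b = mk2 xb ub := ⟨b.fst, b.snd, rfl⟩
  have h2 := hf.anti_two (n_apex2 he) hb hfb
  have hb' := hb
  rw [mk2_sub, nrm2, sub_zero] at h2
  rw [nrm2] at hb
  have hxb : xb = (-‖xb‖) • e := by
    apply sc_neg_ray he (t := 1) one_pos
    rw [one_smul]
    linarith
  have hub : ub = 0 := by
    by_contra hne
    have hpos : 0 < ‖ub‖ := norm_pos_iff.mpr hne
    set μ : ℝ := ‖ub‖ with hμ
    set x : F := ((1 / 2 : ℝ) / μ) • ub with hx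
    have hxn : ‖x‖ = 1 / 2 := by
      rw [hx, norm_smul, Real.norm_of_nonneg (by positivity), ← hμ, div_mul_cancel₀ _ hpos.ne']
    have nx : ‖mk2 ((1 / 2 : ℝ) • e) x‖ = 1 := by
      rw [nrm2, hxn, norm_smul, he, Real.norm_of_nonneg (by norm_num)]; norm_num
    have h3 := up_flat_open2 hf he (t := 1 / 2) (u := x) (by norm_num) (by rw [hxn]; norm_num)
    have e1 : f (mk2 ((1 / 2 : ℝ) • e) x) + f (mk2 e 0)
        = f (mk2 ((1 / 2 : ℝ) • e) x) - f (mk2 xb ub) := by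
      rw [hfb]; abel
    rw [e1, hf.iso _ _ nx hb', mk2_sub, nrm2] at h3
    have e3 : (1 / 2 : ℝ) • e - xb = (1 / 2 + ‖xb‖) • e := by
      conv_lhs => rw [hxb]
      module
    have h5 : ‖(1 / 2 : ℝ) • e - xb‖ = 1 / 2 + ‖xb‖ := by
      rw [e3, norm_smul, he, mul_one, Real.norm_of_nonneg (by positivity)]
    have e2 : x - ub = ((1 / 2 : ℝ) / μ - 1) • ub := by rw [hx]; module
    have h4 : ‖x - ub‖ = |1 / 2 - μ| := by
      rw [e2, norm_smul, ← hμ, Real.norm_eq_abs]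
      have : |1 / 2 / μ - 1| * μ = |(1 / 2 / μ - 1) * μ| := by
        rw [abs_mul, abs_of_pos hpos]
      rw [this]
      congr 1
      field_simp
    rw [h4, h5] at h3
    rcases abs_cases (1 / 2 - μ) with ⟨h6, -⟩ | ⟨h6, -⟩ <;> rw [h6] at h3 <;> linarith
  rw [hub, norm_zero, add_zero] at hb
  rw [hb] at hxb
  rw [← hfb, hub, hxb, neg_smul, one_smul]

/-- TASK A6 (copy of `nonneg_of_flat`, `exists_gup_of_flat`): a unit vector `y` of the target with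
`‖y + f (mk2 e 0)‖ = 2` is `gq f e v`.  Indeed `y = f (mk2 x u)`, and by `neg_apex2`
`‖mk2 x u - mk2 (-e) 0‖ = 2`, i.e. `‖x + e‖ = ‖x‖ + 1`, so `x = ‖x‖ • e` by `sc_pos_ray`. -/
lemma exists_gq_of_flat {e : E} (he : ‖e‖ = 1) {y : W} (hy : ‖y‖ = 1)
    (hfl : ‖y + f (mk2 e 0)‖ = 2) : ∃ v : F, ‖v‖ ≤ 1 ∧ gq f e v = y := by
  obtain ⟨z, hz, hzy⟩ := hf.surj y hy
  obtain ⟨x, u, rfl⟩ : ∃ x u, z = mk2 x u := ⟨z.fst, z.snd, rfl⟩
  have hz' := hz
  rw [nrm2] at hz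
  rw [← hzy] at hfl
  have e1 : f (mk2 x u) + f (mk2 e 0) = f (mk2 x u) - f (mk2 (-e) 0) := by
    rw [neg_apex2 hf he]; abel
  have hn : ‖mk2 (-e) (0 : F)‖ = 1 := by rw [nrm2, norm_neg, he]; simp
  rw [e1, hf.iso _ _ hz' hn, mk2_sub, nrm2, sub_zero, sub_neg_eq_add] at hfl
  have hx : x = ‖x‖ • e := by
    apply sc_pos_ray he (t := 1) one_pos
    rw [one_smul]
    linarith
  refine ⟨u, by linarith [norm_nonneg x], ?_⟩
  rw [gq, ← hzy]
  have h1 : 1 - ‖u‖ = ‖x‖ := by linarith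
  rw [h1, ← hx]

/-- TASK A7: every unit vector of the target at distance `< 2` from the apex is `gq f e'' v` for
some unit vector `e''`: write `y = f (mk2 x u)`; `x ≠ 0` since otherwise the distance is `2`;
`e'' = ‖x‖⁻¹ • x`, `v = u`. -/
lemma exists_gq_of_lt {e : E} (he : ‖e‖ = 1) {y : W} (hy : ‖y‖ = 1)
    (hlt : ‖y - f (mk2 e 0)‖ < 2) : ∃ (e'' : E) (v : F), ‖e''‖ = 1 ∧ ‖v‖ ≤ 1 ∧ gq f e'' v = y := by
  obtain ⟨z, hz, hzy⟩ := hf.surj y hy
  obtain ⟨x, u, rfl⟩ : ∃ x u, z = mk2 x u := ⟨z.fst, z.snd, rfl⟩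
  have hz' := hz
  rw [nrm2] at hz
  rw [← hzy, hf.iso _ _ hz' (n_apex2 he), mk2_sub, nrm2, sub_zero] at hlt
  have hx0 : x ≠ 0 := by
    rintro rfl
    rw [zero_sub, norm_neg, he] at hlt
    rw [norm_zero, zero_add] at hz
    linarith
  have hpos : 0 < ‖x‖ := norm_pos_iff.mpr hx0
  refine ⟨‖x‖⁻¹ • x, u, ?_, by linarith, ?_⟩
  · rw [norm_smul, norm_inv, norm_norm, inv_mul_cancel₀ hpos.ne']
  · rw [gq, ← hzy]
    have h1 : 1 - ‖u‖ = ‖x‖ := by linarith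
    rw [h1, smul_smul, mul_inv_cancel₀ hpos.ne', one_smul]

lemma gq_inj {e : E} (he : ‖e‖ = 1) {v w : F} (hv : ‖v‖ ≤ 1) (hw : ‖w‖ ≤ 1)
    (h : gq f e v = gq f e w) : v = w := by
  have h1 := dist_up2 hf he hv hw
  rw [h, sub_self, norm_zero] at h1
  have h2 : ‖v - w‖ = 0 := by
    have h3 := abs_nonneg (‖v‖ - ‖w‖)
    have h4 := norm_nonneg (v - w)
    linarith
  exact sub_eq_zero.mp (norm_eq_zero.mp h2)

/-- TASK A8: distance between points of two hemispheres, lower bound. -/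
lemma dist_gq_ge {e e'' : E} (he : ‖e‖ = 1) (he'' : ‖e''‖ = 1) {v m : F} (hv : ‖v‖ ≤ 1)
    (hm : ‖m‖ ≤ 1) : (1 - ‖v‖) * ‖e - e''‖ ≤ 2 * ‖gq f e v - gq f e'' m‖ := by
  rw [gq, gq, hf.iso _ _ (n_up2 he hv) (n_up2 he'' hm), mk2_sub, nrm2]
  have h1 := ray_dist he he'' (t := 1 - ‖v‖) (α := 1 - ‖m‖) (by linarith) (by linarith)
  have h2 := norm_nonneg (v - m)
  linarith

lemma dist_apices {e e'' : E} (he : ‖e‖ = 1) (he'' : ‖e''‖ = 1) :
    ‖f (mk2 e 0) - f (mk2 e'' 0)‖ = ‖e - e''‖ := by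
  rw [hf.iso _ _ (n_apex2 he) (n_apex2 he''), mk2_sub, nrm2, sub_zero, norm_zero, add_zero]

end sc

end Vale.Agent.P084
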