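import Vale.Agent.P084.M1.A

/-! the ray lemma for `E ⊕₁ F`, `E` strictly convex -/

namespace Vale.Agent.P084

open Metric Set

set_option linter.unusedSectionVars false

universe u v w

variable {E : Type u} {F : Type v} {W : Type w}
  [NormedAddCommGroup E] [NormedSpace ℝ E] [NormedAddCommGroup F] [NormedSpace ℝ F]
  [NormedAddCommGroup W] [NormedSpace ℝ W] [StrictConvexSpace ℝ E]

/-- first half of `ray_step2`: normalising the next point of the ray -/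
private lemma step_aux1 {a' g : W} {μ τ0 τ : ℝ} (na : ‖a'‖ = 1) (ng : ‖g‖ = 1)
    (hd : ‖g - a'‖ = 2 * μ) (h1 : 1 ≤ τ0) (h01 : τ0 ≤ τ)
    (hτ0 : ‖a' + τ0 • (g - a')‖ = 1) (hlt : μ * (2 * τ - τ0) < 1) :
    ∃ (ν : ℝ) (y : W), ν = ‖a' + τ • (g - a')‖ ∧ 1 ≤ ν ∧ ‖y‖ = 1 ∧ a' + τ • (g - a') = ν • y ∧
      ‖y - a'‖ < 2 := by
  obtain ⟨p, hp⟩ : ∃ p, p = a' + τ • (g - a') := ⟨_, rfl⟩
  rw [← hp]
  obtain ⟨ν, hν⟩ : ∃ ν, ν = ‖p‖ := ⟨_, rfl⟩
  have hν1 : 1 ≤ ν := by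
    have e : τ • g = p + (τ - 1) • a' := by rw [hp]; module
    have h2 := norm_add_le p ((τ - 1) • a')
    rw [← e, norm_smul, norm_smul, ng, na, Real.norm_of_nonneg (by linarith),
      Real.norm_of_nonneg (by linarith), ← hν] at h2
    linarith
  have hν2 : ν ≤ 1 + 2 * (τ - τ0) * μ := by
    have e : p = (a' + τ0 • (g - a')) + (τ - τ0) • (g - a') := by rw [hp]; module
    have h2 := norm_add_le (a' + τ0 • (g - a')) ((τ - τ0) • (g - a'))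
    rw [← e, hτ0, norm_smul, hd, Real.norm_of_nonneg (by linarith), ← hν] at h2
    linarith
  have hνpos : 0 < ν := by linarith
  obtain ⟨y, hy⟩ : ∃ y, y = ν⁻¹ • p := ⟨_, rfl⟩
  have ny : ‖y‖ = 1 := by
    rw [hy, norm_smul, norm_inv, Real.norm_of_nonneg hνpos.le, ← hν, inv_mul_cancel₀ hνpos.ne']
  have hpy : p = ν • y := by rw [hy, smul_smul, mul_inv_cancel₀ hνpos.ne', one_smul]
  refine ⟨ν, y, hν, hν1, ny, hpy, ?_⟩
  have e : y - a' = (1 - ν) • y + τ • (g - a') := by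
    have : τ • (g - a') = ν • y - a' := by rw [← hpy, hp]; abel
    rw [this]; module
  have h2 := norm_add_le ((1 - ν) • y) (τ • (g - a'))
  rw [← e, norm_smul, norm_smul, hd, ny, Real.norm_of_nonneg (by linarith : 0 ≤ τ),
    Real.norm_eq_abs, abs_of_nonpos (by linarith)] at h2
  nlinarith

/-- the Hahn-Banach step of `ray_step2` -/
private lemma step_aux2 {y a'' a' y0 : W} {ν l : ℝ} (ny : ‖y‖ = 1) (na'' : ‖a''‖ = 1)
    (hfl : ‖y + a''‖ = 2) (ny0 : ‖y0‖ = 1) (hl0 : 0 ≤ l)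
    (hP : ν • y = (1 + l) • y0 - l • a') : ν ≤ 1 + l * ‖a' - a''‖ := by
  have hne : ‖y + a''‖ ≠ 0 := by rw [hfl]; norm_num
  obtain ⟨ψ, hψ1, hψ2⟩ := exists_dual_vector ℝ (y + a'') hne
  have hψle : ∀ z : W, ψ z ≤ ‖z‖ := by
    intro z
    have h2 := ψ.le_opNorm z
    rw [hψ1, one_mul] at h2
    exact le_trans (le_abs_self _) h2
  have hψs : ψ y + ψ a'' = 2 := by
    rw [← map_add, hψ2, hfl]; norm_num
  have hψy : ψ y = 1 := by
    have h2 := hψle y; have h3 := hψle a''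
    rw [ny] at h2; rw [na''] at h3; linarith
  have hψa'' : ψ a'' = 1 := by linarith
  have hψa' : 1 - ‖a' - a''‖ ≤ ψ a' := by
    have h2 := hψle (a'' - a')
    rw [map_sub, norm_sub_rev] at h2
    linarith
  have h2 : ψ (ν • y) = ν := by rw [map_smul, hψy, smul_eq_mul, mul_one]
  rw [hP, map_sub, map_smul, map_smul, smul_eq_mul, smul_eq_mul] at h2
  have h3 := hψle y0
  rw [ny0] at h3
  nlinarith

/-- the auxiliary point `m'` of `ray_step2` -/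
private lemma step_aux3 {y a'' : W} {l : ℝ} (ny : ‖y‖ = 1) (na'' : ‖a''‖ = 1)
    (hfl : ‖y + a''‖ = 2) (hl0 : 0 ≤ l) :
    ‖(1 + l)⁻¹ • (y + l • a'')‖ = 1 ∧ ‖(1 + l)⁻¹ • (y + l • a'') + a''‖ = 2 := by
  have h1l : 0 < 1 + l := by linarith
  have hinv : 0 < (1 + l)⁻¹ := inv_pos.mpr h1l
  constructor
  · have h2 := norm_comb_of_flat ny na'' hfl (zero_le_one) hl0
    rw [one_smul] at h2
    rw [norm_smul, h2, Real.norm_of_nonneg hinv.le, inv_mul_cancel₀ h1l.ne']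
  · have e1 : (1 + l)⁻¹ • (y + l • a'') + a'' = (1 + l)⁻¹ • y + ((1 + l)⁻¹ * l + 1) • a'' := by
      module
    rw [e1, norm_comb_of_flat ny na'' hfl hinv.le (by positivity)]
    field_simp
    ring

/-- the distance estimate of `ray_step2` -/
private lemma step_aux4 {y a'' a' y0 : W} {ν l : ℝ} (ny : ‖y‖ = 1) (hν1 : 1 ≤ ν) (hl0 : 0 ≤ l)
    (hP : ν • y = (1 + l) • y0 - l • a') :
    ‖y0 - (1 + l)⁻¹ • (y + l • a'')‖ ≤ (ν - 1) + l * ‖a' - a''‖ := by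
  have h1l : 0 < 1 + l := by linarith
  have hinv : 0 < (1 + l)⁻¹ := inv_pos.mpr h1l
  have e1 : y0 - (1 + l)⁻¹ • (y + l • a'') = (1 + l)⁻¹ • ((ν - 1) • y + l • (a' - a'')) := by
    have e2 : (1 + l) • y0 = ν • y + l • a' := by rw [hP]; abel
    have e3 : y0 = (1 + l)⁻¹ • (ν • y + l • a') := by
      rw [← e2, smul_smul, inv_mul_cancel₀ h1l.ne', one_smul]
    rw [e3, ← smul_sub]
    congr 1
    module
  have h2 := norm_add_le ((ν - 1) • y) (l • (a' - a''))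
  rw [norm_smul, norm_smul, ny, Real.norm_of_nonneg (by linarith),
    Real.norm_of_nonneg hl0, mul_one] at h2
  rw [e1, norm_smul, Real.norm_of_nonneg hinv.le]
  have h3 : (1 + l)⁻¹ ≤ 1 := inv_le_one_of_one_le₀ (by linarith)
  have h4 := norm_nonneg ((ν - 1) • y + l • (a' - a''))
  calc (1 + l)⁻¹ * ‖(ν - 1) • y + l • (a' - a'')‖ ≤ 1 * ‖(ν - 1) • y + l • (a' - a'')‖ :=
        mul_le_mul_of_nonneg_right h3 h4
    _ ≤ _ := by rw [one_mul]; exact h2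

variable {f : WithLp 1 (E × F) → W} (hf : SphIso f)
include hf

/-- the point `y0` of `ray_step2` lies in the hemisphere of `e` -/
private lemma step_aux5 {e : E} (he : ‖e‖ = 1) {u : F} {τ0 : ℝ} (hu : ‖u‖ ≤ 1) (h1 : 1 ≤ τ0)
    (hτ0 : ‖f (mk2 e 0) + τ0 • (gq f e u - f (mk2 e 0))‖ = 1) :
    ∃ u0 : F, ‖u0‖ ≤ 1 ∧ gq f e u0 = f (mk2 e 0) + τ0 • (gq f e u - f (mk2 e 0)) ∧
      ‖u0‖ = τ0 * ‖u‖ := by
  obtain ⟨a', ha'⟩ : ∃ a', a' = f (mk2 e 0) := ⟨_, rfl⟩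
  obtain ⟨g, hg⟩ : ∃ g, g = gq f e u := ⟨_, rfl⟩
  obtain ⟨y0, hy0⟩ : ∃ y0, y0 = a' + τ0 • (g - a') := ⟨_, rfl⟩
  rw [← ha', ← hg, ← hy0] at hτ0
  rw [← ha', ← hg, ← hy0]
  have hτ0pos : 0 < τ0 := by linarith
  have na : ‖a'‖ = 1 := by rw [ha']; exact hf.norm _ (n_apex2 he)
  have ng : ‖g‖ = 1 := by rw [hg]; exact n_gq hf he hu
  have hd : ‖g - a'‖ = 2 * ‖u‖ := by rw [ha', hg]; exact dist_apex2 hf he hu
  have hy0fl : ‖y0 + a'‖ = 2 := by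
    rcases h1.eq_or_lt with h | h
    · have : y0 = g := by rw [hy0, ← h, one_smul]; abel
      rw [this, hg, ha']; exact up_flat2 hf he hu
    · have hi0 : 0 < τ0⁻¹ := inv_pos.mpr hτ0pos
      have hi1 : τ0⁻¹ < 1 := inv_lt_one_of_one_lt₀ h
      have e1 : (1 - τ0⁻¹) • a' + τ0⁻¹ • y0 = g := by
        rw [hy0, smul_add, smul_smul, inv_mul_cancel₀ hτ0pos.ne', one_smul]; module
      have h2 := flat_of_comb na hτ0 hi0 hi1 (by rw [e1]; exact ng)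
      rw [add_comm]; exact h2
  obtain ⟨u0, hu0, hgu0⟩ := exists_gq_of_flat hf he hτ0 (by rw [← ha']; exact hy0fl)
  refine ⟨u0, hu0, hgu0, ?_⟩
  have h2 := dist_apex2 hf he hu0
  rw [hgu0, ← ha'] at h2
  have e1 : y0 - a' = τ0 • (g - a') := by rw [hy0]; abel
  rw [e1, norm_smul, hd, Real.norm_of_nonneg hτ0pos.le] at h2
  linarith

/-- TASK B1.  One step of the continuation argument along the ray from the apex `a' = f (mk2 e 0)`
through `g = gq f e u`.  (Compare `ray_step` in `L1c.lean`; the first half is identical.)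
Notation: `μ = ‖u‖`, `y0 = a' + τ0 • (g - a')`, `P = a' + τ • (g - a')`, `ν = ‖P‖`, `ω = ν - 1`.
1. `1 ≤ ν ≤ 1 + 2 (τ - τ0) μ`, `yh = ν⁻¹ • P` is a unit vector with `‖yh - a'‖ < 2` (as in
   `ray_step`, using `hlt`).
2. `exists_gq_of_lt`: `yh = gq f e'' v`.  Put `a'' = f (mk2 e'' 0)`, `δ = ‖e - e''‖ = ‖a' - a''‖`
   (`dist_apices`).  `up_flat2`: `‖yh + a''‖ = 2`.  `exists_dual_vector ℝ (yh + a'')` gives `ψ` with
   `ψ y ≤ ‖y‖` for all `y`, `ψ yh = 1`, `ψ a'' = 1` (see `crux'` in `Sd2.lean` for this step).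
   Hence `1 - δ ≤ ψ a'`.
3. With `l = τ / τ0 - 1 ≥ 0`: `P = (1 + l) • y0 - l • a'`; applying `ψ`:
   `ν = (1 + l) ψ y0 - l ψ a' ≤ 1 + l δ`, i.e. `ω ≤ l δ`.
4. `m' = (1 + l)⁻¹ • (yh + l • a'')` is a unit vector with `‖m' + a''‖ = 2` (`norm_comb_of_flat`), so
   `m' = gq f e'' m` (`exists_gq_of_flat`).  `y0` is a unit vector with `‖y0 + a'‖ = 2`
   (if `τ0 = 1` it is `g`: `up_flat2`; otherwise `flat_of_comb` with `g = (1 - 1/τ0) a' + (1/τ0) y0`),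
   so `y0 = gq f e u0` and `2 ‖u0‖ = ‖y0 - a'‖ = 2 τ0 μ` (`dist_apex2`).
5. `y0 - m' = (1 + l)⁻¹ • ((P - yh) + l • (a' - a''))`, so `‖y0 - m'‖ ≤ ω + l δ ≤ 2 l δ`, while
   `dist_gq_ge`: `δ (1 - τ0 μ) ≤ 2 ‖y0 - m'‖ ≤ 4 l δ`.  By `hstep`, `4 l < 1 - τ0 μ`, so `δ = 0`,
   `ω ≤ 0`, `ν = 1`. -/
lemma ray_step2 {e : E} (he : ‖e‖ = 1) {u : F} {τ0 τ : ℝ} (hu : ‖u‖ ≤ 1) (h1 : 1 ≤ τ0)
    (h01 : τ0 ≤ τ)
    (hτ0 : ‖f (mk2 e 0) + τ0 • (gq f e u - f (mk2 e 0))‖ = 1)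
    (hlt : ‖u‖ * (2 * τ - τ0) < 1)
    (hstep : 4 * (τ - τ0) < τ0 * (1 - τ0 * ‖u‖)) :
    ‖f (mk2 e 0) + τ • (gq f e u - f (mk2 e 0))‖ = 1 := by
  obtain ⟨u0, hu0, hgu0, hu0n⟩ := step_aux5 hf he hu h1 hτ0
  have hτ0pos : 0 < τ0 := by linarith
  obtain ⟨ν, y, hν, hν1, ny, hpy, hya⟩ := step_aux1 (hf.norm _ (n_apex2 he)) (n_gq hf he hu)
    (dist_apex2 hf he hu) h1 h01 hτ0 hlt
  rw [← hν]
  obtain ⟨e'', v, he'', hv, hgv⟩ := exists_gq_of_lt hf he ny hya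
  have na'' : ‖f (mk2 e'' 0)‖ = 1 := hf.norm _ (n_apex2 he'')
  have hδa := dist_apices hf he he''
  have hfl : ‖y + f (mk2 e'' 0)‖ = 2 := by rw [← hgv]; exact up_flat2 hf he'' hv
  obtain ⟨l, hl⟩ : ∃ l, l = (τ - τ0) / τ0 := ⟨_, rfl⟩
  have hl0 : 0 ≤ l := by rw [hl]; exact div_nonneg (by linarith) hτ0pos.le
  have hlτ : l * τ0 = τ - τ0 := by rw [hl]; field_simp
  have hP : ν • y = (1 + l) • (f (mk2 e 0) + τ0 • (gq f e u - f (mk2 e 0))) - l • f (mk2 e 0) := by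
    have e1 : (1 + l) • (f (mk2 e 0) + τ0 • (gq f e u - f (mk2 e 0))) - l • f (mk2 e 0)
        = f (mk2 e 0) + ((1 + l) * τ0) • (gq f e u - f (mk2 e 0)) := by
      module
    rw [e1, ← hpy]
    congr 2
    linarith
  have hω := step_aux2 ny na'' hfl hτ0 hl0 hP
  obtain ⟨nm', hm'fl⟩ := step_aux3 ny na'' hfl hl0
  obtain ⟨m, hm, hgm⟩ := exists_gq_of_flat hf he'' nm' hm'fl
  have hdiff := step_aux4 (a'' := f (mk2 e'' 0)) ny hν1 hl0 hP
  have hge := dist_gq_ge hf he he'' hu0 hm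
  rw [hgu0, hgm, hu0n] at hge
  rw [hδa] at hω hdiff
  have hδ0 : 0 ≤ ‖e - e''‖ := norm_nonneg _
  have h4l : 4 * l < 1 - τ0 * ‖u‖ := by
    have h5 : 4 * (l * τ0) < τ0 * (1 - τ0 * ‖u‖) := by rw [hlτ]; exact hstep
    have h6 : τ0 * (4 * l) < τ0 * (1 - τ0 * ‖u‖) := by linarith
    exact lt_of_mul_lt_mul_left h6 hτ0pos.le
  have hδ00 : ‖e - e''‖ = 0 := by
    by_contra hne0
    have hpos : 0 < ‖e - e''‖ := lt_of_le_of_ne hδ0 (Ne.symm hne0)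
    have h5 : 0 < (1 - τ0 * ‖u‖ - 4 * l) * ‖e - e''‖ := mul_pos (by linarith) hpos
    have h6 : (1 - τ0 * ‖u‖ - 4 * l) * ‖e - e''‖
        = (1 - τ0 * ‖u‖) * ‖e - e''‖ - 4 * (l * ‖e - e''‖) := by ring
    linarith
  rw [hδ00, mul_zero, add_zero] at hω
  linarith

/-- TASK B2.  The ray from the apex through `gq f e u` stays on the sphere as long as it should.
Copy of `ray` in `L1c.lean`; the step is now
`min (min (y - x) ((b - x) / 3)) (x * (1 - x * ‖u‖) / 8)`, which is positive because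
`1 - x ‖u‖ ≥ (b - x) ‖u‖ > 0`. -/
lemma ray2 {e : E} (he : ‖e‖ = 1) {u : F} {b : ℝ} (hu : ‖u‖ ≤ 1) (hb : ‖u‖ * b ≤ 1) {τ : ℝ}
    (h1 : 1 ≤ τ) (hτ : τ ≤ b) :
    ‖f (mk2 e 0) + τ • (gq f e u - f (mk2 e 0))‖ = 1 := by
  by_cases hu0 : u = 0
  · rw [hu0, gq_zero, sub_self, smul_zero, add_zero]; exact hf.norm _ (n_apex2 he)
  have hμ : 0 < ‖u‖ := norm_pos_iff.mpr hu0
  set s : Set ℝ := {τ | ‖f (mk2 e 0) + τ • (gq f e u - f (mk2 e 0))‖ = 1} with hs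
  have hcl : IsClosed s := isClosed_eq (by fun_prop) continuous_const
  have hsub : Icc 1 b ⊆ s := by
    apply IsClosed.Icc_subset_of_forall_exists_gt (hcl.inter isClosed_Icc)
    · change ‖f (mk2 e 0) + (1 : ℝ) • (gq f e u - f (mk2 e 0))‖ = 1
      rw [one_smul, add_sub_cancel]; exact n_gq hf he hu
    · rintro x ⟨hxs, hx1, hxb⟩ y hy
      have hy' : x < y := hy
      have hgap : 0 < 1 - x * ‖u‖ := by nlinarith
      have hthird : 0 < x * (1 - x * ‖u‖) / 8 := by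
        have : 0 < x * (1 - x * ‖u‖) := mul_pos (by linarith) hgap
        linarith
      obtain ⟨δ, hδdef⟩ : ∃ δ, δ = min (min (y - x) ((b - x) / 3)) (x * (1 - x * ‖u‖) / 8) :=
        ⟨_, rfl⟩
      have hδ : 0 < δ := by
        rw [hδdef]
        exact lt_min (lt_min (by linarith) (by linarith)) hthird
      have hδ1 : δ ≤ y - x := by
        rw [hδdef]; exact le_trans (min_le_left _ _) (min_le_left _ _)
      have hδ2 : δ ≤ (b - x) / 3 := by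
        rw [hδdef]; exact le_trans (min_le_left _ _) (min_le_right _ _)
      have hδ3 : δ ≤ x * (1 - x * ‖u‖) / 8 := by
        rw [hδdef]; exact min_le_right _ _
      refine ⟨x + δ, ?_, ?_, ?_⟩
      · apply ray_step2 hf he hu hx1 (by linarith) hxs
        · nlinarith
        · linarith
      · linarith
      · linarith
  exact hsub ⟨h1, hτ⟩

end Vale.Agent.P084
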