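import Vale.Agent.P084.M1.B

/-! the homothety formula for `E ⊕₁ F`, `E` strictly convex -/

namespace Vale.Agent.P084

open Metric Set

set_option linter.unusedSectionVars false

universe u v w

variable {E : Type u} {F : Type v} {W : Type w}
  [NormedAddCommGroup E] [NormedSpace ℝ E] [NormedAddCommGroup F] [NormedSpace ℝ F]
  [NormedAddCommGroup W] [NormedSpace ℝ W] [StrictConvexSpace ℝ E]

variable {f : WithLp 1 (E × F) → W} (hf : SphIso f)
include hf

/-- TASK C1.  The homothety formula on the hemisphere around the apex `mk2 e 0`.  Word for word copy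
of `gup_smul` in `L1c.lean` with `gup f ↦ gq f e`, `mk1 1 0 ↦ mk2 e 0`, `dist_up ↦ dist_up2 hf he`,
`dist_apex ↦ dist_apex2 hf he`, `up_flat ↦ up_flat2 hf he`, `exists_gup_of_flat ↦
exists_gq_of_flat hf he`, `ray ↦ ray2 hf he`, `gup_inj ↦ gq_inj hf he`, `n_gup ↦ n_gq hf he`,
`n_apex ↦ n_apex2 he`. -/
lemma gq_smul {e : E} (he : ‖e‖ = 1) {l : ℝ} (h0 : 0 < l) (h1 : l < 1) {v : F} (hv : ‖v‖ ≤ 1) :
    gq f e (l • v) = (1 - l) • f (mk2 e 0) + l • gq f e v := by
  obtain ⟨a', ha'⟩ : ∃ a', a' = f (mk2 e 0) := ⟨_, rfl⟩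
  rw [← ha']
  have na : ‖a'‖ = 1 := by rw [ha']; exact hf.norm _ (n_apex2 he)
  have hda : ∀ v : F, ‖v‖ ≤ 1 → ‖gq f e v - a'‖ = 2 * ‖v‖ := by
    intro v hv; rw [ha']; exact dist_apex2 hf he hv
  have hex : ∀ v : F, ‖v‖ ≤ 1 → ∃ m : F, ‖m‖ ≤ 1 ∧ gq f e m = (1 - l) • a' + l • gq f e v := by
    intro v hv
    have hfl : ‖a' + gq f e v‖ = 2 := by rw [add_comm, ha']; exact up_flat2 hf he hv
    apply exists_gq_of_flat hf he
    · rw [norm_comb_of_flat na (n_gq hf he hv) hfl (by linarith : 0 ≤ 1 - l) h0.le]; ring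
    · have e : (1 - l) • a' + l • gq f e v + f (mk2 e 0) = (2 - l) • a' + l • gq f e v := by
        rw [← ha']; module
      rw [e, norm_comb_of_flat na (n_gq hf he hv) hfl (by linarith) h0.le]; ring
  choose! m hm1 hm2 using hex
  have hmn : ∀ v, ‖v‖ ≤ 1 → ‖m v‖ = l * ‖v‖ := by
    intro v hv
    have h2 := hda _ (hm1 v hv)
    have e : gq f e (m v) - a' = l • (gq f e v - a') := by rw [hm2 v hv]; module
    rw [e, norm_smul, hda v hv, Real.norm_of_nonneg h0.le] at h2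
    linarith
  have hmd : ∀ v w, ‖v‖ ≤ 1 → ‖w‖ ≤ 1 → ‖m v - m w‖ = l * ‖v - w‖ := by
    intro v w hv hw
    have h2 := dist_up2 hf he (hm1 v hv) (hm1 w hw)
    have e : gq f e (m v) - gq f e (m w) = l • (gq f e v - gq f e w) := by
      rw [hm2 v hv, hm2 w hw]; module
    rw [e, norm_smul, dist_up2 hf he hv hw, Real.norm_of_nonneg h0.le, hmn v hv, hmn w hw, ← mul_sub,
      abs_mul, abs_of_pos h0] at h2
    linarith
  have hmv : ∀ v, ‖v‖ ≤ 1 → ‖v - m v‖ = (1 - l) * ‖v‖ := by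
    intro v hv
    have h2 := dist_up2 hf he hv (hm1 v hv)
    have e : gq f e v - gq f e (m v) = (1 - l) • (gq f e v - a') := by rw [hm2 v hv]; module
    rw [e, norm_smul, hda v hv, Real.norm_of_nonneg (by linarith), hmn v hv] at h2
    have h3 : |‖v‖ - l * ‖v‖| = (1 - l) * ‖v‖ := by
      rw [abs_of_nonneg (by nlinarith [norm_nonneg v])]; ring
    rw [h3] at h2; linarith
  have hms : ∀ w, ‖w‖ ≤ l → ∃ v, ‖v‖ ≤ 1 ∧ m v = w := by
    intro w hw
    have hw1 : ‖w‖ ≤ 1 := by linarith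
    have hr := ray2 hf he hw1 (b := l⁻¹) (by rw [← div_eq_mul_inv, div_le_one h0]; exact hw)
      (τ := l⁻¹) ((one_le_inv₀ h0).mpr h1.le) le_rfl
    rw [← ha'] at hr
    obtain ⟨q, hq⟩ : ∃ q, q = a' + l⁻¹ • (gq f e w - a') := ⟨_, rfl⟩
    rw [← hq] at hr
    have e : gq f e w = (1 - l) • a' + l • q := by
      rw [hq, smul_add, smul_smul, mul_inv_cancel₀ h0.ne', one_smul]; module
    have hfl := flat_of_comb na hr h0 h1 (by rw [← e]; exact n_gq hf he hw1)
    obtain ⟨v, hv, hgv⟩ := exists_gq_of_flat hf he hr (by rw [add_comm, ← ha']; exact hfl)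
    refine ⟨v, hv, ?_⟩
    apply gq_inj hf he (hm1 v hv) hw1
    rw [hm2 v hv, hgv, ← e]
  have hli : 0 < l⁻¹ := inv_pos.mpr h0
  obtain ⟨U, hU1, hU2⟩ := ball_iso_linear (fun v => l⁻¹ • m v)
    (by
      have : m 0 = 0 := by
        have := hmn 0 (by simp)
        rw [norm_zero, mul_zero] at this
        exact norm_eq_zero.mp this
      change l⁻¹ • m 0 = 0
      rw [this, smul_zero])
    (by
      intro u u' hu hu'
      change ‖l⁻¹ • m u - l⁻¹ • m u'‖ = ‖u - u'‖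
      rw [← smul_sub, norm_smul, hmd u u' hu hu', Real.norm_of_nonneg hli.le, ← mul_assoc,
        inv_mul_cancel₀ h0.ne', one_mul])
    (by
      intro w hw
      obtain ⟨u, hu, hmu⟩ := hms (l • w) (by
        rw [norm_smul, Real.norm_of_nonneg h0.le]; nlinarith)
      refine ⟨u, hu, ?_⟩
      change l⁻¹ • m u = w
      rw [hmu, smul_smul, inv_mul_cancel₀ h0.ne', one_smul])
  have hmU : ∀ v, ‖v‖ ≤ 1 → m v = l • U v := by
    intro v hv
    rw [← hU1 v hv, smul_smul, mul_inv_cancel₀ h0.ne', one_smul]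
  have hid := iso_eq_id U hU2 h0 h1 (by
    intro v
    by_cases hv0 : v = 0
    · rw [hv0, map_zero, smul_zero, sub_zero, norm_zero, mul_zero]
    · have hpos : 0 < ‖v‖ := norm_pos_iff.mpr hv0
      have hn : ‖‖v‖⁻¹ • v‖ = 1 := by
        rw [norm_smul, norm_inv, norm_norm, inv_mul_cancel₀ hpos.ne']
      have h2 := hmv _ hn.le
      rw [hmU _ hn.le, hn, mul_one, map_smul, smul_comm l, ← smul_sub, norm_smul, norm_inv,
        norm_norm] at h2
      field_simp at h2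
      linarith)
  rw [← hm2 v hv, hmU v hv, hid v]

end Vale.Agent.P084
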