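import Vale.Agent.P084.M1.C

/-! `E ⊕₁ F`, `E` strictly convex: the formula `f (x, v) = G x + H v` and its consequences.
Analogue of the first part of `L1d.lean`. -/

namespace Vale.Agent.P084

open Metric Set

set_option linter.unusedSectionVars false

universe u v w

variable {E : Type u} {F : Type v} {W : Type w}
  [NormedAddCommGroup E] [NormedSpace ℝ E] [NormedAddCommGroup F] [NormedSpace ℝ F]
  [NormedAddCommGroup W] [NormedSpace ℝ W]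

/-- the positively homogeneous extension of the restriction of `f` to `{0} × S_F` -/
noncomputable def Hm (f : WithLp 1 (E × F) → W) (v : F) : W := ‖v‖ • f (mk2 0 (‖v‖⁻¹ • v))

/-- the positively homogeneous extension of the restriction of `f` to `S_E × {0}` -/
noncomputable def Gm (f : WithLp 1 (E × F) → W) (x : E) : W := ‖x‖ • f (mk2 (‖x‖⁻¹ • x) 0)

lemma Hm_zero (f : WithLp 1 (E × F) → W) : Hm f 0 = 0 := by
  rw [Hm, norm_zero, zero_smul]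

lemma Gm_zero (f : WithLp 1 (E × F) → W) : Gm f 0 = 0 := by
  rw [Gm, norm_zero, zero_smul]

lemma Hm_smul (f : WithLp 1 (E × F) → W) {c : ℝ} (hc : 0 ≤ c) (v : F) :
    Hm f (c • v) = c • Hm f v := by
  rcases hc.eq_or_lt with h | h
  · rw [← h, zero_smul, zero_smul, Hm_zero]
  · have e : (c * ‖v‖)⁻¹ * c = ‖v‖⁻¹ := by
      rw [mul_inv, mul_comm c⁻¹, mul_assoc, inv_mul_cancel₀ h.ne', mul_one]
    rw [Hm, Hm, norm_smul, Real.norm_of_nonneg hc, smul_smul, e, smul_smul]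

lemma Gm_smul (f : WithLp 1 (E × F) → W) {c : ℝ} (hc : 0 ≤ c) (x : E) :
    Gm f (c • x) = c • Gm f x := by
  rcases hc.eq_or_lt with h | h
  · rw [← h, zero_smul, zero_smul, Gm_zero]
  · have e : (c * ‖x‖)⁻¹ * c = ‖x‖⁻¹ := by
      rw [mul_inv, mul_comm c⁻¹, mul_assoc, inv_mul_cancel₀ h.ne', mul_one]
    rw [Gm, Gm, norm_smul, Real.norm_of_nonneg hc, smul_smul, e, smul_smul]

lemma Gm_unit (f : WithLp 1 (E × F) → W) {e : E} (he : ‖e‖ = 1) : Gm f e = f (mk2 e 0) := by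
  rw [Gm, he, inv_one, one_smul, one_smul]

lemma Hm_unit (f : WithLp 1 (E × F) → W) {s : F} (hs : ‖s‖ = 1) : Hm f s = f (mk2 0 s) := by
  rw [Hm, hs, inv_one, one_smul, one_smul]

variable [StrictConvexSpace ℝ E]

variable {f : WithLp 1 (E × F) → W} (hf : SphIso f)
include hf

/-- TASK D1: `neg_apex2` and the definition. -/
lemma Gm_neg (x : E) : Gm f (-x) = - Gm f x := by
  by_cases hx0 : x = 0
  · rw [hx0, neg_zero, Gm_zero, neg_zero]
  have hpos : 0 < ‖x‖ := norm_pos_iff.mpr hx0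
  have hn : ‖‖x‖⁻¹ • x‖ = 1 := by
    rw [norm_smul, norm_inv, norm_norm, inv_mul_cancel₀ hpos.ne']
  rw [Gm, Gm, norm_neg, smul_neg, neg_apex2 hf hn, smul_neg]

/-- TASK D2: from `Gm_smul` and `Gm_neg`. -/
lemma Gm_smul_real (c : ℝ) (x : E) : Gm f (c • x) = c • Gm f x := by
  rcases le_total 0 c with hc | hc
  · exact Gm_smul f hc x
  · have h1 : c • x = -((-c) • x) := by rw [neg_smul, neg_neg]
    rw [h1, Gm_neg hf, Gm_smul f (by linarith : 0 ≤ -c), neg_smul, neg_neg]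

/-- TASK D3 (compare `upper_formula` in `L1d.lean`).  If `x = 0` this is `Hm_unit`; if `v = 0` it is
`Gm_unit`; otherwise with `e = ‖x‖⁻¹ • x`, `s = ‖v‖⁻¹ • v`, `l = ‖v‖ ∈ (0,1)`:
`f (mk2 x v) = gq f e (l • s) = (1 - l) • f (mk2 e 0) + l • gq f e s` by `gq_smul`, and
`gq f e s = f (mk2 0 s)`. -/
lemma sphere_formula2 {x : E} {v : F} (h : ‖x‖ + ‖v‖ = 1) :
    f (mk2 x v) = Gm f x + Hm f v := by
  by_cases hx0 : x = 0
  · rw [hx0, norm_zero, zero_add] at h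
    rw [hx0, Gm_zero, zero_add, Hm_unit f h]
  by_cases hv0 : v = 0
  · rw [hv0, norm_zero, add_zero] at h
    rw [hv0, Hm_zero, add_zero, Gm_unit f h]
  have hxpos : 0 < ‖x‖ := norm_pos_iff.mpr hx0
  have hpos : 0 < ‖v‖ := norm_pos_iff.mpr hv0
  have hne : ‖‖x‖⁻¹ • x‖ = 1 := by
    rw [norm_smul, norm_inv, norm_norm, inv_mul_cancel₀ hxpos.ne']
  have hn : ‖‖v‖⁻¹ • v‖ = 1 := by
    rw [norm_smul, norm_inv, norm_norm, inv_mul_cancel₀ hpos.ne']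
  have hvv : ‖v‖ • (‖v‖⁻¹ • v) = v := by
    rw [smul_smul, mul_inv_cancel₀ hpos.ne', one_smul]
  have hxx : ‖x‖ • (‖x‖⁻¹ • x) = x := by
    rw [smul_smul, mul_inv_cancel₀ hxpos.ne', one_smul]
  have hg1 : gq f (‖x‖⁻¹ • x) (‖v‖⁻¹ • v) = f (mk2 0 (‖v‖⁻¹ • v)) := by
    rw [gq, hn, sub_self, zero_smul]
  have hg2 : gq f (‖x‖⁻¹ • x) v = f (mk2 x v) := by
    have h3 : 1 - ‖v‖ = ‖x‖ := by linarith
    rw [gq, h3, hxx]
  have h1 : ‖v‖ < 1 := by linarith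
  have h2 := gq_smul hf hne hpos h1 hn.le
  rw [hvv, hg1, hg2] at h2
  have h3 : 1 - ‖v‖ = ‖x‖ := by linarith
  rw [h2, Hm, Gm, h3]

/-- TASK D4 (copy of `Phi_eq`). -/
lemma Phi2_eq {x : E} {v : F} {N : ℝ} (hN : 0 < N) (h : ‖x‖ + ‖v‖ = N) :
    Gm f x + Hm f v = N • f (mk2 (N⁻¹ • x) (N⁻¹ • v)) := by
  have hi : 0 < N⁻¹ := inv_pos.mpr hN
  have h1 : ‖N⁻¹ • x‖ + ‖N⁻¹ • v‖ = 1 := by
    rw [norm_smul, norm_smul, Real.norm_of_nonneg hi.le, ← mul_add, h,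
      inv_mul_cancel₀ hN.ne']
  rw [sphere_formula2 hf h1, Hm_smul f hi.le, Gm_smul f hi.le, smul_add, smul_smul, smul_smul,
    mul_inv_cancel₀ hN.ne', one_smul, one_smul]

/-- TASK D5 (copy of `Phi_norm`). -/
lemma Phi2_norm (x : E) (v : F) : ‖Gm f x + Hm f v‖ = ‖x‖ + ‖v‖ := by
  rcases (add_nonneg (norm_nonneg x) (norm_nonneg v)).eq_or_lt with h | h
  · have h1 : ‖x‖ = 0 := by linarith [norm_nonneg x, norm_nonneg v]
    have h2 : ‖v‖ = 0 := by linarith [norm_nonneg x, norm_nonneg v]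
    rw [norm_eq_zero.mp h1, norm_eq_zero.mp h2, Hm_zero, Gm_zero, add_zero, norm_zero, norm_zero,
      norm_zero, add_zero]
  · have hi : 0 < (‖x‖ + ‖v‖)⁻¹ := inv_pos.mpr h
    rw [Phi2_eq hf h rfl, norm_smul, Real.norm_of_nonneg h.le, hf.norm, mul_one]
    rw [nrm2, norm_smul, norm_smul, Real.norm_of_nonneg hi.le, ← mul_add,
      inv_mul_cancel₀ h.ne']

/-- TASK D6 (copy of `Phi_dist`). -/
lemma Phi2_dist {x x' : E} {v w : F} {N : ℝ} (hN : 0 < N) (h : ‖x‖ + ‖v‖ = N)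
    (h' : ‖x'‖ + ‖w‖ = N) :
    ‖(Gm f x + Hm f v) - (Gm f x' + Hm f w)‖ = ‖x - x'‖ + ‖v - w‖ := by
  have hi : 0 < N⁻¹ := inv_pos.mpr hN
  have h1 : ‖mk2 (N⁻¹ • x) (N⁻¹ • v)‖ = 1 := by
    rw [nrm2, norm_smul, norm_smul, Real.norm_of_nonneg hi.le, ← mul_add, h,
      inv_mul_cancel₀ hN.ne']
  have h2 : ‖mk2 (N⁻¹ • x') (N⁻¹ • w)‖ = 1 := by
    rw [nrm2, norm_smul, norm_smul, Real.norm_of_nonneg hi.le, ← mul_add, h',
      inv_mul_cancel₀ hN.ne']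
  rw [Phi2_eq hf hN h, Phi2_eq hf hN h', ← smul_sub, norm_smul, hf.iso _ _ h1 h2, mk2_sub, nrm2,
    ← smul_sub, ← smul_sub, norm_smul, norm_smul, Real.norm_of_nonneg hi.le,
    Real.norm_of_nonneg hN.le, ← mul_add, ← mul_assoc, mul_inv_cancel₀ hN.ne', one_mul]

/-- TASK D7 (copy of `Phi_surj`). -/
lemma Phi2_surj (y : W) : ∃ (x : E) (u : F), y = Gm f x + Hm f u := by
  by_cases h0 : y = 0
  · exact ⟨0, 0, by rw [h0, Gm_zero, Hm_zero, add_zero]⟩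
  · have hpos : 0 < ‖y‖ := norm_pos_iff.mpr h0
    have hn : ‖‖y‖⁻¹ • y‖ = 1 := by
      rw [norm_smul, norm_inv, norm_norm, inv_mul_cancel₀ hpos.ne']
    obtain ⟨z, hz, hzy⟩ := hf.surj _ hn
    obtain ⟨t, u, rfl⟩ : ∃ t u, z = mk2 t u := ⟨z.fst, z.snd, rfl⟩
    rw [nrm2] at hz
    refine ⟨‖y‖ • t, ‖y‖ • u, ?_⟩
    rw [Hm_smul f hpos.le, Gm_smul f hpos.le, ← smul_add, ← sphere_formula2 hf hz, hzy, smul_smul,
      mul_inv_cancel₀ hpos.ne', one_smul]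

/-- TASK D8 (compare `Hmap_sub` in `L1d.lean`).  Write `Hm f v - Hm f w = Gm f x0 + Hm f u0`
(`Phi2_surj`), choose a unit vector `e` with `x0 = ‖x0‖ • e` (any unit vector if `x0 = 0`), put
`tz = ‖x0‖`, so `Gm f x0 = tz • Gm f e`, `Gm f (t • e) = t • Gm f e` for all real `t`
(`Gm_smul_real`), `‖t • e‖ = |t|`, and repeat the proof of `Hmap_sub` with `f (mk1 1 0)` replaced by
`Gm f e` and `Phi_dist`, `Phi_norm` by `Phi2_dist`, `Phi2_norm` at the points `t • e`. -/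
lemma Hm_sub (hEn : ∃ e : E, ‖e‖ = 1) (v w : F) :
    ∃ u : F, Hm f v - Hm f w = Hm f u ∧ ‖u‖ = ‖v - w‖ := by
  obtain ⟨x0, uz, hz0⟩ := Phi2_surj hf (Hm f v - Hm f w)
  obtain ⟨e, he, hx0⟩ : ∃ e : E, ‖e‖ = 1 ∧ x0 = ‖x0‖ • e := by
    by_cases h0 : x0 = 0
    · obtain ⟨e, he⟩ := hEn
      exact ⟨e, he, by rw [h0, norm_zero, zero_smul]⟩
    · have hn : ‖x0‖ ≠ 0 := norm_ne_zero_iff.mpr h0
      refine ⟨‖x0‖⁻¹ • x0, ?_, ?_⟩
      · rw [norm_smul, norm_inv, norm_norm, inv_mul_cancel₀ hn]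
      · rw [smul_smul, mul_inv_cancel₀ hn, one_smul]
  obtain ⟨tz, htz0⟩ : ∃ tz, tz = ‖x0‖ := ⟨_, rfl⟩
  have hG : ∀ t : ℝ, Gm f (t • e) = t • Gm f e := fun t => Gm_smul_real hf t e
  have hne : ∀ t : ℝ, ‖t • e‖ = |t| := fun t => by
    rw [norm_smul, he, mul_one, Real.norm_eq_abs]
  have hz : Hm f v - Hm f w = tz • Gm f e + Hm f uz := by
    rw [hz0, htz0, ← hG, ← hx0]
  have hPn : ∀ (t : ℝ) (u : F), ‖t • Gm f e + Hm f u‖ = |t| + ‖u‖ := fun t u => by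
    rw [← hG, Phi2_norm hf, hne]
  obtain ⟨τ, hτ⟩ : ∃ τ, τ = |tz| + ‖v‖ + ‖w‖ + 1 := ⟨_, rfl⟩
  have hv0 := norm_nonneg v
  have hw0 := norm_nonneg w
  have ht0 := abs_nonneg tz
  have ht1 := le_abs_self tz
  have ht2 := neg_abs_le tz
  obtain ⟨s, hs⟩ : ∃ s, s = (τ - ‖v‖ + ‖w‖) / 2 := ⟨_, rfl⟩
  obtain ⟨s', hs'⟩ : ∃ s', s' = (τ + ‖v‖ - ‖w‖) / 2 := ⟨_, rfl⟩
  have hs0 : 0 ≤ s := by rw [hs]; linarith
  have hs0' : 0 ≤ s' := by rw [hs']; linarith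
  have hN : 0 < (τ + ‖v‖ + ‖w‖) / 2 := by linarith
  have A := Phi2_dist hf (x := s • e) (x' := (-s') • e) (v := v) (w := w) hN
    (by rw [hne, abs_of_nonneg hs0, hs]; ring) (by rw [hne, abs_neg, abs_of_nonneg hs0', hs']; ring)
  have B := Phi2_dist hf (x := (-s) • e) (x' := s' • e) (v := v) (w := w) hN
    (by rw [hne, abs_neg, abs_of_nonneg hs0, hs]; ring) (by rw [hne, abs_of_nonneg hs0', hs']; ring)
  have dA : s • e - (-s') • e = (s + s') • e := by module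
  have dB : (-s) • e - s' • e = (-(s + s')) • e := by module
  rw [hG, hG, dA, hne] at A
  rw [hG, hG, dB, hne] at B
  have eA : (s • Gm f e + Hm f v) - ((-s') • Gm f e + Hm f w)
      = (τ + tz) • Gm f e + Hm f uz := by
    have : (s • Gm f e + Hm f v) - ((-s') • Gm f e + Hm f w)
        = (s + s') • Gm f e + (Hm f v - Hm f w) := by module
    rw [this, hz, hs, hs']; module
  have eB : ((-s) • Gm f e + Hm f v) - (s' • Gm f e + Hm f w)
      = (-τ + tz) • Gm f e + Hm f uz := by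
    have : ((-s) • Gm f e + Hm f v) - (s' • Gm f e + Hm f w)
        = (-(s + s')) • Gm f e + (Hm f v - Hm f w) := by module
    rw [this, hz, hs, hs']; module
  rw [eA, hPn, abs_of_nonneg (by linarith), abs_of_nonneg (by linarith)] at A
  rw [eB, hPn, abs_of_nonpos (by linarith), abs_of_nonpos (by linarith)] at B
  have hss : s + s' = τ := by rw [hs, hs']; ring
  have htz : tz = 0 := by linarith
  refine ⟨uz, ?_, by linarith⟩
  rw [hz, htz, zero_smul, zero_add]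

end Vale.Agent.P084
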