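import Vale.Agent.P084.M1.D
import Vale.Agent.P084.Sc4

/-! `E ⊕₁ F`, `E` strictly convex, `F` arbitrary: the Mazur-Ulam property. -/

namespace Vale.Agent.P084

open Metric Set

set_option linter.unusedSectionVars false

universe u v w

variable {E : Type u} {F : Type v} {W : Type w}
  [NormedAddCommGroup E] [NormedSpace ℝ E] [NormedAddCommGroup F] [NormedSpace ℝ F]
  [NormedAddCommGroup W] [NormedSpace ℝ W] [StrictConvexSpace ℝ E]

section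
variable {f : WithLp 1 (E × F) → W} (hf : SphIso f)
include hf

/-- TASK E1.  `Hm f` is an isometry (from `Hm_sub` and `Phi2_norm` with `x = 0`). -/
lemma Hm_iso (hEn : ∃ e : E, ‖e‖ = 1) (v w : F) : ‖Hm f v - Hm f w‖ = ‖v - w‖ := by
  obtain ⟨u, hu1, hu2⟩ := Hm_sub hf hEn v w
  have h := Phi2_norm hf 0 u
  rw [Gm_zero, zero_add, norm_zero, zero_add] at h
  rw [hu1, h, hu2]

/-- TASK E2.  Write `Gm f x - Gm f x' = Gm f x1 + Hm f u1` (`Phi2_surj`).  Claim `u1 = 0` and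
`‖x1‖ = ‖x - x'‖`.  If `u1 = 0` use `Phi2_dist` with `v = α • s`, `w = β • s`
(`‖x‖ + α = ‖x'‖ + β`, s any unit vector... or argue as below with `s` instead of `s1`).
In general let `s1` be a unit vector with `u1 = ‖u1‖ • s1` (any unit vector of `F` if `u1 = 0`) and
`s2` a unit vector with `Hm f s2 = - Hm f s1` (`Hm_sub` with `v = 0`, `w = s1`).  Take `α, β ≥ 0` with
`‖x‖ + α = ‖x'‖ + β = N` and `σ = α + β > ‖u1‖`.
* `Phi2_dist` at `x`, `α • s1` and `x'`, `β • s2`: the left side is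
  `‖Gm f x1 + (‖u1‖ + σ) • Hm f s1‖ = ‖x1‖ + ‖u1‖ + σ` (`Hm_smul`, `Phi2_norm`), the right side is
  `‖x - x'‖ + ‖α • s1 - β • s2‖` and `‖α • s1 - β • s2‖ = ‖Hm f (α • s1) - Hm f (β • s2)‖ = σ`
  (`Hm_iso`).
* `Phi2_dist` at `x`, `α • s2` and `x'`, `β • s1`: the left side is
  `‖Gm f x1 + (σ - ‖u1‖) • Hm f s2‖ = ‖x1‖ + σ - ‖u1‖`, the right side `‖x - x'‖ + σ`.
Hence `‖u1‖ = 0` and `‖x1‖ = ‖x - x'‖`. -/
lemma Gm_sub (hEn : ∃ e : E, ‖e‖ = 1) (hFn : ∃ s : F, ‖s‖ = 1) (x x' : E) :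
    ∃ x1 : E, Gm f x - Gm f x' = Gm f x1 ∧ ‖x1‖ = ‖x - x'‖ := by
  obtain ⟨x1, u1, hz0⟩ := Phi2_surj hf (Gm f x - Gm f x')
  obtain ⟨s1, hs1, hu1⟩ : ∃ s1 : F, ‖s1‖ = 1 ∧ u1 = ‖u1‖ • s1 := by
    by_cases h0 : u1 = 0
    · obtain ⟨s, hs⟩ := hFn
      exact ⟨s, hs, by rw [h0, norm_zero, zero_smul]⟩
    · have hn : ‖u1‖ ≠ 0 := norm_ne_zero_iff.mpr h0
      refine ⟨‖u1‖⁻¹ • u1, ?_, ?_⟩
      · rw [norm_smul, norm_inv, norm_norm, inv_mul_cancel₀ hn]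
      · rw [smul_smul, mul_inv_cancel₀ hn, one_smul]
  obtain ⟨s2, hs2a, hs2b⟩ := Hm_sub hf hEn 0 s1
  rw [Hm_zero, zero_sub] at hs2a
  rw [zero_sub, norm_neg, hs1] at hs2b
  obtain ⟨r, hr⟩ : ∃ r, r = ‖u1‖ := ⟨_, rfl⟩
  have hr0 : 0 ≤ r := by rw [hr]; exact norm_nonneg _
  have hx0 := norm_nonneg x
  have hx0' := norm_nonneg x'
  have hz : Gm f x - Gm f x' = Gm f x1 + r • Hm f s1 := by
    rw [hz0, hr, ← Hm_smul f (norm_nonneg _), ← hu1]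
  obtain ⟨α, hα⟩ : ∃ α, α = ‖x'‖ + r + 1 := ⟨_, rfl⟩
  obtain ⟨β, hβ⟩ : ∃ β, β = ‖x‖ + r + 1 := ⟨_, rfl⟩
  have hα0 : 0 ≤ α := by rw [hα]; linarith
  have hβ0 : 0 ≤ β := by rw [hβ]; linarith
  have hN : 0 < ‖x‖ + ‖x'‖ + r + 1 := by linarith
  have n1 : ∀ {c : ℝ}, 0 ≤ c → ‖c • s1‖ = c := fun {c} hc => by
    rw [norm_smul, hs1, mul_one, Real.norm_of_nonneg hc]
  have n2 : ∀ {c : ℝ}, 0 ≤ c → ‖c • s2‖ = c := fun {c} hc => by
    rw [norm_smul, hs2b, mul_one, Real.norm_of_nonneg hc]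
  have hH1 : ‖Hm f s1‖ = 1 := by
    have h := Phi2_norm hf 0 s1
    rwa [Gm_zero, zero_add, norm_zero, zero_add, hs1] at h
  have d12 : ∀ {a b : ℝ}, 0 ≤ a → 0 ≤ b → ‖a • s1 - b • s2‖ = a + b := fun {a b} ha hb => by
    rw [← Hm_iso hf hEn, Hm_smul f ha, Hm_smul f hb, ← hs2a]
    have : a • Hm f s1 - b • -Hm f s1 = (a + b) • Hm f s1 := by module
    rw [this, norm_smul, hH1, mul_one, Real.norm_of_nonneg (by linarith)]
  have d21 : ∀ {a b : ℝ}, 0 ≤ a → 0 ≤ b → ‖a • s2 - b • s1‖ = a + b := fun {a b} ha hb => by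
    rw [norm_sub_rev, d12 hb ha, add_comm]
  have A := Phi2_dist hf (x := x) (x' := x') (v := α • s1) (w := β • s2) hN
    (by rw [n1 hα0, hα]; ring) (by rw [n2 hβ0, hβ]; ring)
  have B := Phi2_dist hf (x := x) (x' := x') (v := α • s2) (w := β • s1) hN
    (by rw [n2 hα0, hα]; ring) (by rw [n1 hβ0, hβ]; ring)
  rw [d12 hα0 hβ0, Hm_smul f hα0, Hm_smul f hβ0, ← hs2a] at A
  rw [d21 hα0 hβ0, Hm_smul f hα0, Hm_smul f hβ0, ← hs2a] at B
  have hσ1 : 0 ≤ r + (α + β) := by linarith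
  have hσ2 : 0 ≤ α + β - r := by rw [hα, hβ]; linarith
  have eA : (Gm f x + α • Hm f s1) - (Gm f x' + β • -Hm f s1)
      = Gm f x1 + Hm f ((r + (α + β)) • s1) := by
    have : (Gm f x + α • Hm f s1) - (Gm f x' + β • -Hm f s1)
        = (Gm f x - Gm f x') + (α + β) • Hm f s1 := by module
    rw [this, hz, Hm_smul f hσ1]; module
  have eB : (Gm f x + α • -Hm f s1) - (Gm f x' + β • Hm f s1)
      = Gm f x1 + Hm f ((α + β - r) • s2) := by
    have : (Gm f x + α • -Hm f s1) - (Gm f x' + β • Hm f s1)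
        = (Gm f x - Gm f x') - (α + β) • Hm f s1 := by module
    rw [this, hz, Hm_smul f hσ2, ← hs2a]; module
  rw [eA, Phi2_norm hf, n1 hσ1] at A
  rw [eB, Phi2_norm hf, n2 hσ2] at B
  have hr00 : r = 0 := by linarith
  refine ⟨x1, ?_, by linarith⟩
  rw [hz, hr00, zero_smul, add_zero]

/-- TASK E3.  `Gm f` is additive: it is an isometry (`Gm_sub`, `Phi2_norm`), its range is closed under
addition (`Gm f x1 + Gm f x2 = Gm f x1 - Gm f (-x2)`, `Gm_neg`, `Gm_sub`), it is homogeneous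
(`Gm_smul_real`), and `E` is strictly convex: copy `hadd` from the proof of `sc_raw` in `Sc4.lean`
(`eq_midpoint_of_dist_eq_half`). -/
lemma Gm_add (hEn : ∃ e : E, ‖e‖ = 1) (hFn : ∃ s : F, ‖s‖ = 1) (x1 x2 : E) :
    Gm f (x1 + x2) = Gm f x1 + Gm f x2 := by
  have hGn : ∀ x : E, ‖Gm f x‖ = ‖x‖ := by
    intro x
    have := Phi2_norm hf x (0 : F)
    rwa [Hm_zero, add_zero, norm_zero, add_zero] at this
  have hGiso : ∀ x x' : E, ‖Gm f x - Gm f x'‖ = ‖x - x'‖ := by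
    intro x x'
    obtain ⟨y, hy1, hy2⟩ := Gm_sub hf hEn hFn x x'
    rw [hy1, hGn, hy2]
  obtain ⟨x', hx', -⟩ := Gm_sub hf hEn hFn x1 (-x2)
  rw [Gm_neg hf, sub_neg_eq_add] at hx'
  set m : E := (1 / 2 : ℝ) • x' with hm
  have hGm : Gm f m = (1 / 2 : ℝ) • (Gm f x1 + Gm f x2) := by rw [hm, Gm_smul_real hf, hx']
  have d1 : dist x1 m = dist x1 x2 / 2 := by
    rw [dist_eq_norm, dist_eq_norm, ← hGiso, ← hGiso, hGm]
    have : Gm f x1 - (1 / 2 : ℝ) • (Gm f x1 + Gm f x2)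
        = (1 / 2 : ℝ) • (Gm f x1 - Gm f x2) := by module
    rw [this, norm_smul]; norm_num; ring
  have d2 : dist m x2 = dist x1 x2 / 2 := by
    rw [dist_eq_norm, dist_eq_norm, ← hGiso, ← hGiso, hGm]
    have : (1 / 2 : ℝ) • (Gm f x1 + Gm f x2) - Gm f x2
        = (1 / 2 : ℝ) • (Gm f x1 - Gm f x2) := by module
    rw [this, norm_smul]; norm_num; ring
  have h3 := eq_midpoint_of_dist_eq_half d1 d2
  rw [midpoint_eq_smul_add] at h3
  have h4 : x' = x1 + x2 := by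
    have : (1 / 2 : ℝ) • x' = (1 / 2 : ℝ) • (x1 + x2) := by
      rw [← hm, h3]; congr 1; norm_num
    exact smul_right_injective E (by norm_num : (1 / 2 : ℝ) ≠ 0) this
  rw [← h4, hx']

/-- TASK E4.  Copy of `l1_raw` in `L1d.lean`: `Φ z = Gm f z.fst + Hm f z.snd` is a surjective isometry
with `Φ 0 = 0` (for the isometry: `Gm f x - Gm f x' = Gm f (x - x')` by `Gm_add`, `Gm_neg`;
`Hm f v - Hm f w = Hm f u` by `Hm_sub`; `Phi2_norm`), hence linear by the Mazur-Ulam theorem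
(`IsometryEquiv.toRealLinearIsometryEquivOfMapZero`), and `Φ = f` on the sphere by
`sphere_formula2`. -/
theorem l1sc_raw (hEn : ∃ e : E, ‖e‖ = 1) (hFn : ∃ s : F, ‖s‖ = 1) :
    ∃ T : WithLp 1 (E × F) →L[ℝ] W, ∀ z, ‖z‖ = 1 → T z = f z := by
  let Φ : WithLp 1 (E × F) → W := fun z => Gm f z.fst + Hm f z.snd
  have hΦ : ∀ x u, Φ (mk2 x u) = Gm f x + Hm f u := fun x u => rfl
  have hiso : Isometry Φ := by
    apply Isometry.of_dist_eq
    intro z z'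
    obtain ⟨x, v, rfl⟩ : ∃ x u, z = mk2 x u := ⟨z.fst, z.snd, rfl⟩
    obtain ⟨x', w, rfl⟩ : ∃ x u, z' = mk2 x u := ⟨z'.fst, z'.snd, rfl⟩
    obtain ⟨u, hu1, hu2⟩ := Hm_sub hf hEn v w
    rw [dist_eq_norm, dist_eq_norm, hΦ, hΦ, mk2_sub, nrm2]
    have hG : Gm f x - Gm f x' = Gm f (x - x') := by
      rw [sub_eq_add_neg x x', Gm_add hf hEn hFn, Gm_neg hf, sub_eq_add_neg]
    have e : (Gm f x + Hm f v) - (Gm f x' + Hm f w)
        = (Gm f x - Gm f x') + (Hm f v - Hm f w) := by abel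
    rw [e, hu1, hG, Phi2_norm hf, hu2]
  have hsurj : Function.Surjective Φ := by
    intro y
    obtain ⟨x, u, h⟩ := Phi2_surj hf y
    exact ⟨mk2 x u, by rw [hΦ, h]⟩
  let e : WithLp 1 (E × F) ≃ᵢ W :=
    IsometryEquiv.mk (Equiv.ofBijective Φ ⟨hiso.injective, hsurj⟩) hiso
  have he0 : e 0 = 0 := by
    change Φ (mk2 0 0) = 0
    rw [hΦ, Gm_zero, Hm_zero, add_zero]
  let T := e.toRealLinearIsometryEquivOfMapZero he0
  refine ⟨(T : WithLp 1 (E × F) →L[ℝ] W), ?_⟩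
  intro z hz
  obtain ⟨x, v, rfl⟩ : ∃ x u, z = mk2 x u := ⟨z.fst, z.snd, rfl⟩
  change Φ (mk2 x v) = f (mk2 x v)
  rw [nrm2] at hz
  rw [hΦ, sphere_formula2 hf hz]

end

/-- The `ℓ₁`-sum of a nonzero strictly convex space with an arbitrary nonzero real normed space has
the Mazur-Ulam property. -/
theorem l1sc_mup (E : Type u) (F : Type v) [NormedAddCommGroup E] [NormedSpace ℝ E]
    [NormedAddCommGroup F] [NormedSpace ℝ F] [StrictConvexSpace ℝ E] [Nontrivial E] [Nontrivial F] :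
    MazurUlamProperty.{max u v, w} (WithLp 1 (E × F)) := by
  intro Y _ _ f hf hs
  obtain ⟨e, he⟩ := exists_norm_eq E (zero_le_one' ℝ)
  obtain ⟨s, hs'⟩ := exists_norm_eq F (zero_le_one' ℝ)
  exact equiv_of_raw (fun g hg => l1sc_raw hg ⟨e, he⟩ ⟨s, hs'⟩) f hf hs

end Vale.Agent.P084
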